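import Mathlib

/-!
Interfaces for the counterexample to the Auslander-Reiten conjecture.
See notes/P195/PROOF.md for the informal proof.
-/

namespace Vale.Agent.P195

open Module

/-- A finite-dimensional algebra `R` over `k` with a resolution of `Y 0` by finitely generated
projective left modules `P n`, with explicit syzygies: `0 → Y (n+1) → P n → Y n → 0`. -/
structure Pack (k : Type) [Field k] : Type 1 where
  R : Type
  [ring : Ring R]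
  [alg : Algebra k R]
  [fd : FiniteDimensional k R]
  P : ℕ → Type
  [pA : ∀ n, AddCommGroup (P n)]
  [pR : ∀ n, Module R (P n)]
  [pk : ∀ n, Module k (P n)]
  [pT : ∀ n, IsScalarTower k R (P n)]
  [proj : ∀ n, Module.Projective R (P n)]
  [fin : ∀ n, Module.Finite R (P n)]
  Y : ℕ → Type
  [yA : ∀ n, AddCommGroup (Y n)]
  [yR : ∀ n, Module R (Y n)]
  [yk : ∀ n, Module k (Y n)]
  [yT : ∀ n, IsScalarTower k R (Y n)]
  pr : ∀ n, P n →ₗ[R] Y n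
  inc : ∀ n, Y (n + 1) →ₗ[R] P n
  pr_surj : ∀ n, Function.Surjective (pr n)
  inc_inj : ∀ n, Function.Injective (inc n)
  exact : ∀ n, Function.Exact (inc n) (pr n)

attribute [instance] Pack.ring Pack.alg Pack.fd Pack.pA Pack.pR Pack.pk Pack.pT Pack.proj Pack.fin
  Pack.yA Pack.yR Pack.yk Pack.yT

variable {k : Type} [Field k]

instance Pack.fdP (X : Pack k) (n : ℕ) : FiniteDimensional k (X.P n) :=
  Module.Finite.trans X.R (X.P n)

instance Pack.finY (X : Pack k) (n : ℕ) : Module.Finite X.R (X.Y n) :=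
  Module.Finite.of_surjective (X.pr n) (X.pr_surj n)

instance Pack.fdY (X : Pack k) (n : ℕ) : FiniteDimensional k (X.Y n) :=
  Module.Finite.trans X.R (X.Y n)

/-- Output of Part B (the algebra `B = C ⊗ C` and its simple module `S = Y 0`). -/
structure Pack.BData (X : Pack k) : Prop where
  tr : ∀ t : X.R, LinearMap.trace k X.R (LinearMap.mulRight k t) = 0
  rank : finrank k (X.Y 0) = 1
  hS : ∀ (n : ℕ) (f : X.P (n + 1) →ₗ[X.R] X.Y 0), f = 0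
  v0 : ∀ f : X.Y 0 →ₗ[X.R] X.R, f = 0
  vB : ∀ (n : ℕ), n ≠ 3 → ∀ f : X.Y (n + 1) →ₗ[X.R] X.R,
    ∃ g : X.P n →ₗ[X.R] X.R, g ∘ₗ X.inc n = f
  vP : ∀ (j : ℕ) (f : X.Y 4 →ₗ[X.R] X.P (j + 1)),
    ∃ g : X.P 3 →ₗ[X.R] X.P (j + 1), g ∘ₗ X.inc 3 = f

/-- `f` commutes with the action of the elements of `S`. -/
def BLin {E M N : Type} [Ring E] [AddCommGroup M] [AddCommGroup N] [Module k M] [Module k N]
    [Module E M] [Module E N] (S : Set E) (f : M →ₗ[k] N) : Prop :=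
  ∀ b ∈ S, ∀ x, f (b • x) = b • f x

/-- `f` is `s`-semilinear. -/
def Semi {E M N : Type} [Ring E] [AddCommGroup M] [AddCommGroup N] [Module k M] [Module k N]
    [Module E M] [Module E N] (s : E → E) (f : M →ₗ[k] N) : Prop :=
  ∀ e x, f (e • x) = s e • f x

/-- Output of Part E (the algebra `E = B[z]/z^2`, resolution shifted by four). -/
structure Pack.EData (X : Pack k) where
  S : Set X.R
  σ : X.R ≃ₐ[k] X.R
  fix : ∀ b ∈ S, σ b = b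
  sP : ∀ n, X.P n →ₗ[k] X.P n
  sY : ∀ n, X.Y n →ₗ[k] X.Y n
  sP_semi : ∀ n, Semi σ (sP n)
  sY_semi : ∀ n, Semi σ (sY n)
  pr_s : ∀ n x, X.pr n (sP n x) = sY n (X.pr n x)
  inc_s : ∀ n y, X.inc n (sY (n + 1) y) = sP n (X.inc n y)
  tr0 : ∀ f : X.R →ₗ[k] X.R, BLin S f → LinearMap.trace k X.R f = 0
  hE : ∀ (n : ℕ) (f : X.Y (n + 1) →ₗ[X.R] X.R), ∃ g : X.P n →ₗ[X.R] X.R, g ∘ₗ X.inc n = f
  hB : ∀ (n : ℕ) (f : X.Y (n + 1) →ₗ[k] X.R), BLin S f →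
    ∃ g : X.P n →ₗ[k] X.R, BLin S g ∧ ∀ y, g (X.inc n y) = f y
  bproj : ∀ (n : ℕ) (f : X.R →ₗ[k] X.Y n), BLin S f →
    ∃ g : X.R →ₗ[k] X.P n, BLin S g ∧ ∀ x, X.pr n (g x) = f x
  b1 : ∀ (j : ℕ), j ≠ 1 → ∀ f : X.Y 2 →ₗ[k] X.Y (j + 1), BLin S f →
    ∃ g : X.Y 2 →ₗ[k] X.P (j + 1), BLin S g ∧ ∀ y, X.pr (j + 1) (g y) = f y
  b2 : ∀ f : X.Y 2 →ₗ[k] X.Y 2, BLin S f →
    ∃ (c : k) (g : X.Y 2 →ₗ[k] X.P 2), BLin S g ∧ ∀ y, f y = c • y + X.pr 2 (g y)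
  t1 : LinearMap.trace k (X.Y 2) LinearMap.id = 1
  t2 : LinearMap.trace k (X.Y 2) (sY 2) = 1
  h1 : ∀ (n : ℕ) (h : X.Y (n + 3) →ₗ[X.R] X.Y 2) (a : X.P (n + 2) →ₗ[k] X.Y 2), Semi σ a →
    (∀ y, sY 2 (h y) + h (sY (n + 3) y) = a (X.inc (n + 2) y)) →
    ∃ h' : X.P (n + 2) →ₗ[X.R] X.Y 2, h' ∘ₗ X.inc (n + 2) = h
  h2 : ∀ (n : ℕ) (a : X.Y (n + 3) →ₗ[k] X.Y 2), Semi σ a →
    ∃ (h : X.Y (n + 3) →ₗ[X.R] X.Y 2) (a' : X.P (n + 2) →ₗ[k] X.Y 2), Semi σ a' ∧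
      ∀ y, a y = sY 2 (h y) + h (sY (n + 3) y) + a' (X.inc (n + 2) y)
  h2' : ∀ (a : X.Y 2 →ₗ[k] X.Y 2), Semi σ a →
    ∃ (c : k) (h : X.Y 2 →ₗ[X.R] X.Y 2) (a' : X.P 1 →ₗ[k] X.Y 2), Semi σ a' ∧
      ∀ y, a y = sY 2 (h y) + h (sY 2 y) + a' (X.inc 1 y) + c • sY 2 y

/-- Output of Part L: a cochain-level counterexample to the Auslander-Reiten conjecture. -/
structure Cex (k : Type) [Field k] : Type 1 where
  L : Type
  [ring : Ring L]
  [alg : Algebra k L]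
  [fd : FiniteDimensional k L]
  Z : ℕ → Type
  [zA : ∀ n, AddCommGroup (Z n)]
  [zL : ∀ n, Module L (Z n)]
  [proj : ∀ n, Module.Projective L (Z n)]
  [fin : ∀ n, Module.Finite L (Z n)]
  M : Type
  [mA : AddCommGroup M]
  [mL : Module L M]
  d : ∀ n, Z (n + 1) →ₗ[L] Z n
  ε : Z 0 →ₗ[L] M
  ε_surj : Function.Surjective ε
  exact0 : Function.Exact (d 0) ε
  exact : ∀ n, Function.Exact (d (n + 1)) (d n)
  vanM : ∀ (n : ℕ) (c : Z (n + 1) →ₗ[L] M), c ∘ₗ d (n + 1) = 0 →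
    ∃ b : Z n →ₗ[L] M, c = b ∘ₗ d n
  vanL : ∀ (n : ℕ) (c : Z (n + 1) →ₗ[L] L), c ∘ₗ d (n + 1) = 0 →
    ∃ b : Z n →ₗ[L] L, c = b ∘ₗ d n
  not_proj : ¬ Module.Projective L M

attribute [instance] Cex.ring Cex.alg Cex.fd Cex.zA Cex.zL Cex.proj Cex.fin Cex.mA Cex.mL

/-- Dual basis of a finitely generated projective module. -/
theorem exists_dual_basis (R P : Type) [Ring R] [AddCommGroup P] [Module R P]
    [Module.Projective R P] [Module.Finite R P] :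
    ∃ (n : ℕ) (x : Fin n → P) (l : Fin n → P →ₗ[R] R), ∀ v, ∑ i, l i v • x i = v := by
  obtain ⟨n, f, g, -, -, hfg⟩ := Module.Finite.exists_comp_eq_id_of_projective R P
  refine ⟨n, fun i => f (Pi.single i 1), fun i => (LinearMap.proj i) ∘ₗ g, fun v => ?_⟩
  have h1 : f (g v) = v := by
    have := LinearMap.congr_fun hfg v
    simpa using this
  conv_rhs => rw [← h1]
  have h2 : g v = ∑ i, g v i • (Pi.single i 1 : Fin n → R) := by
    ext j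
    simp [Finset.sum_apply, Pi.single_apply]
  conv_rhs => rw [h2]
  simp [map_sum]

end Vale.Agent.P195
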