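import Vale.Agent.P195.Basic

namespace Vale.Agent.P195

open CategoryTheory Abelian

theorem ext_subsingleton_of_complex {R : Type} [Ring R] (Z : ℕ → Type) [∀ n, AddCommGroup (Z n)]
    [∀ n, Module R (Z n)] [∀ n, Module.Projective R (Z n)] (M T : Type) [AddCommGroup M]
    [Module R M] [AddCommGroup T] [Module R T] (d : ∀ n, Z (n + 1) →ₗ[R] Z n) (ε : Z 0 →ₗ[R] M)
    (hε : Function.Surjective ε) (h0 : Function.Exact (d 0) ε)
    (hd : ∀ n, Function.Exact (d (n + 1)) (d n))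
    (hv : ∀ (n : ℕ) (c : Z (n + 1) →ₗ[R] T), c ∘ₗ d (n + 1) = 0 →
      ∃ b : Z n →ₗ[R] T, c = b ∘ₗ d n) (i : ℕ) :
    Subsingleton (Ext (ModuleCat.of R M) (ModuleCat.of R T) (i + 1)) := by
  induction i generalizing Z M d ε with
  | zero =>
    have hS := LinearMap.shortExact_shortComplexKer hε
    refine subsingleton_of_forall_eq 0 fun x => ?_
    obtain ⟨y, rfl⟩ := Ext.contravariant_sequence_exact₃ hS (ModuleCat.of R T) x
      (Ext.eq_zero_of_projective _) (n₀ := 0) rfl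
    obtain ⟨c, rfl⟩ := (Ext.mk₀_bijective _ _).2 y
    let ε' : Z 1 →ₗ[R] LinearMap.ker ε :=
      (d 0).codRestrict _ fun z => (h0 _).2 ⟨z, rfl⟩
    have hε' : Function.Surjective ε' := by
      rintro ⟨z, hz⟩
      obtain ⟨y, hy⟩ := (h0 z).1 hz
      exact ⟨y, Subtype.ext hy⟩
    obtain ⟨b, hb⟩ := hv 0 (c.hom ∘ₗ ε') (by
      ext z
      have : ε' (d 1 z) = 0 := Subtype.ext ((hd 0 _).2 ⟨z, rfl⟩)
      simp [this])
    have hc : c = ε.shortComplexKer.f ≫ ModuleCat.ofHom b := by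
      ext z
      obtain ⟨y, rfl⟩ := hε' z
      exact LinearMap.congr_fun hb y
    rw [hc, ← Ext.mk₀_comp_mk₀, ← Ext.comp_assoc_of_second_deg_zero, hS.extClass_comp,
      Ext.zero_comp]
  | succ i ih =>
    have hS := LinearMap.shortExact_shortComplexKer hε
    refine subsingleton_of_forall_eq 0 fun x => ?_
    obtain ⟨y, rfl⟩ := Ext.contravariant_sequence_exact₃ hS (ModuleCat.of R T) x
      (Ext.eq_zero_of_projective _) (n₀ := i + 1) (by omega)
    let ε' : Z 1 →ₗ[R] LinearMap.ker ε :=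
      (d 0).codRestrict _ fun z => (h0 _).2 ⟨z, rfl⟩
    have hε' : Function.Surjective ε' := by
      rintro ⟨z, hz⟩
      obtain ⟨y, hy⟩ := (h0 z).1 hz
      exact ⟨y, Subtype.ext hy⟩
    have h0' : Function.Exact (d 1) ε' := by
      intro z
      rw [← hd 0 z]
      exact Subtype.ext_iff
    have := ih (fun n => Z (n + 1)) (LinearMap.ker ε) (fun n => d (n + 1)) ε' hε' h0'
      (fun n => hd (n + 1)) (fun n => hv (n + 1))
    have hy : y = 0 := Subsingleton.elim _ _
    rw [hy, Ext.comp_zero]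

end Vale.Agent.P195
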