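import Vale.Agent.P195.E.Mod

namespace Vale.Agent.P195

namespace E

open Module TrivSqZeroExt

variable {k : Type} [Field k]

def ZV (X : Pack k) (n : ℕ) : ZD X.R (V X n) := ⟨zV n, zV_zV n⟩
abbrev ZP (X : Pack k) (n : ℕ) : ZD X.R (PP X n) := indZ X.R (T X (n + 1))

instance fdE (X : Pack k) : FiniteDimensional k (EE X.R) :=
  inferInstanceAs (FiniteDimensional k (X.R × X.R))

theorem finP (X : Pack k) (n : ℕ) : Module.Finite (EE X.R) (ZP X n).Mod := by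
  have : Module.Finite k (ZP X n).Mod := inferInstanceAs (Module.Finite k (PP X n))
  exact Module.Finite.of_restrictScalars_finite k _ _

noncomputable def packE [CharP k 2] (X : Pack k) : Pack k where
  R := EE X.R
  P n := (ZP X (n + 4)).Mod
  proj _ := ind_proj
  fin n := finP X (n + 4)
  Y n := (ZV X (n + 4)).Mod
  pr n := ofBE (k := k) (ZP X (n + 4)).cmp (ZV X (n + 4)).cmp (prE (n + 4)) (Tw_prE _)
  inc n := ofBE (k := k) (ZV X (n + 5)).cmp (ZP X (n + 4)).cmp (incE (n + 4)) (Tw_incE _)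
  pr_surj n := prE_surj (n + 4)
  inc_inj n := incE_inj (n + 4)
  exact n := exactE (n + 4)

instance projE (X : Pack k) : Module.Projective X.R (EE X.R) :=
  inferInstanceAs (Module.Projective X.R (X.R × X.R))

instance finE (X : Pack k) : Module.Finite X.R (EE X.R) :=
  inferInstanceAs (Module.Finite X.R (X.R × X.R))

instance towE (X : Pack k) : IsScalarTower k X.R (EE X.R) :=
  inferInstanceAs (IsScalarTower k X.R (X.R × X.R))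

abbrev VM (X : Pack k) (n : ℕ) : Type := (ZV X n).Mod
abbrev PM (X : Pack k) (n : ℕ) : Type := (ZP X n).Mod

section
variable {X : Pack k}

def sPM (H : k) (n : ℕ) : PM X n →ₗ[k] PM X n :=
  (show PM X n →ₗ[X.R] PM X n from sP H n).restrictScalars k
def sVM (H : k) (n : ℕ) : VM X n →ₗ[k] VM X n :=
  (show VM X n →ₗ[X.R] VM X n from sV H n).restrictScalars k
def prM (n : ℕ) : PM X n →ₗ[EE X.R] VM X n :=
  ofBE (k := k) (ZP X n).cmp (ZV X n).cmp (prE n) (Tw_prE _)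
def incM (n : ℕ) : VM X (n + 1) →ₗ[EE X.R] PM X n :=
  ofBE (k := k) (ZV X (n + 1)).cmp (ZP X n).cmp (incE n) (Tw_incE _)

theorem f_tr0 (hX : X.BData) (f : EE X.R →ₗ[k] EE X.R) (hf : BLin (SE X.R) f) :
    LinearMap.trace k (EE X.R) f = 0 := by
  obtain ⟨g, hg⟩ := toB cmpE cmpE f hf
  have : f = g.restrictScalars k := LinearMap.ext fun x => (hg x).symm
  rw [this]
  exact trace_proj hX g

theorem f_hE (hX : X.BData) (n : ℕ) (f : VM X (n + 5) →ₗ[EE X.R] EE X.R) :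
    ∃ g : PM X (n + 4) →ₗ[EE X.R] EE X.R, g ∘ₗ incM (n + 4) = f := by
  obtain ⟨g, tg, hg⟩ := toBE (k := k) (ZV X (n + 5)).cmp cmpE f
  obtain ⟨g0, hg0⟩ := extB (van_proj hX (n := n + 4) (by omega) X.R)
    (LinearMap.snd X.R X.R X.R ∘ₗ (show V X (n + 5) →ₗ[X.R] X.R × X.R from g))
  have t1 := Tw_toInd (one_ne_zero (α := k)) (zP_zP (X := X) (n + 4)) g0
  refine ⟨ofBE (k := k) (ZP X (n + 4)).cmp cmpE (toInd (1 : k) (zP (n + 4)) g0) t1,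
    LinearMap.ext fun y => ?_⟩
  exact (Tw.ext_snd (g := (show V X (n + 5) →ₗ[X.R] X.R × X.R from g)) one_ne_zero
    (t1.comp1 (Tw_incE _)) tg hg0 y).trans (hg y)

theorem f_hB (hX : X.BData) (n : ℕ) (f : VM X (n + 5) →ₗ[k] EE X.R) (hf : BLin (SE X.R) f) :
    ∃ g : PM X (n + 4) →ₗ[k] EE X.R, BLin (SE X.R) g ∧ ∀ y, g (incM (n + 4) y) = f y := by
  obtain ⟨g, hg⟩ := toB (ZV X (n + 5)).cmp cmpE f hf
  obtain ⟨g0, hg0⟩ := extB (van_proj hX (n := n + 4) (by omega) (EE X.R)) g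
  exact ⟨_, ofB (ZP X (n + 4)).cmp cmpE g0, fun y => (hg0 y).trans (hg y)⟩

theorem f_bproj (n : ℕ) (f : EE X.R →ₗ[k] VM X n) (hf : BLin (SE X.R) f) :
    ∃ g : EE X.R →ₗ[k] PM X n, BLin (SE X.R) g ∧ ∀ x, prM n (g x) = f x := by
  obtain ⟨g, hg⟩ := toB cmpE (ZV X n).cmp f hf
  obtain ⟨g0, hg0⟩ := liftP (prE_surj (X := X) n) g
  exact ⟨_, ofB cmpE (ZP X n).cmp g0, fun y => (hg0 y).trans (hg y)⟩

theorem f_b1 (hX : X.BData) (j : ℕ) (hj : j ≠ 1) (f : VM X 6 →ₗ[k] VM X (j + 5))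
    (hf : BLin (SE X.R) f) :
    ∃ g : VM X 6 →ₗ[k] PM X (j + 5), BLin (SE X.R) g ∧ ∀ y, prM (j + 5) (g y) = f y := by
  obtain ⟨g, hg⟩ := toB (ZV X 6).cmp (ZV X (j + 5)).cmp f hf
  obtain ⟨g0, hg0⟩ := b1B hX j hj g
  exact ⟨_, ofB (ZV X 6).cmp (ZP X (j + 5)).cmp g0, fun y => (hg0 y).trans (hg y)⟩

theorem f_b2 (hX : X.BData) (f : VM X 6 →ₗ[k] VM X 6) (hf : BLin (SE X.R) f) :
    ∃ (c : k) (g : VM X 6 →ₗ[k] PM X 6), BLin (SE X.R) g ∧ ∀ y, f y = c • y + prM 6 (g y) := by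
  obtain ⟨g, hg⟩ := toB (ZV X 6).cmp (ZV X 6).cmp f hf
  obtain ⟨c, g0, hg0⟩ := b2B hX g
  exact ⟨c, _, ofB (ZV X 6).cmp (ZP X 6).cmp g0, fun y => (hg y).symm.trans (hg0 y)⟩

variable [CharP k 2] {H : k} (hH0 : H ≠ 0) (hH : ∀ n : ℕ, 1 + H ^ (n + 1) ≠ 0) (hX : X.BData)

include hH hX in
theorem f_h1 (n : ℕ) (h : VM X (n + 7) →ₗ[EE X.R] VM X 6) (a : PM X (n + 6) →ₗ[k] VM X 6)
    (ha : Semi (σE X.R hH0) a)
    (hc : ∀ y, sVM H 6 (h y) + h (sVM H (n + 7) y) = a (incM (n + 6) y)) :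
    ∃ h' : PM X (n + 6) →ₗ[EE X.R] VM X 6, h' ∘ₗ incM (n + 6) = h := by
  obtain ⟨h0, th, hh⟩ := toBE (k := k) (ZV X (n + 7)).cmp (ZV X 6).cmp h
  obtain ⟨a0, ta, ha0⟩ := toBS hH0 (ZP X (n + 6)).cmp (ZV X 6).cmp a ha
  obtain ⟨h', t', e⟩ := h1B hX hH0 hH n h0 a0 th ta (fun (v : VM X (n + 7)) => by
    have e1 := hc v
    rw [← hh, ← hh, ← ha0] at e1
    exact e1)
  exact ⟨ofBE (k := k) (ZP X (n + 6)).cmp (ZV X 6).cmp h' t',
    LinearMap.ext fun y => (e y).trans (hh y)⟩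

include hH hX in
theorem f_h2 (n : ℕ) (a : VM X (n + 7) →ₗ[k] VM X 6) (ha : Semi (σE X.R hH0) a) :
    ∃ (h : VM X (n + 7) →ₗ[EE X.R] VM X 6) (a' : PM X (n + 6) →ₗ[k] VM X 6),
      Semi (σE X.R hH0) a' ∧
      ∀ y, a y = sVM H 6 (h y) + h (sVM H (n + 7) y) + a' (incM (n + 6) y) := by
  obtain ⟨a0, ta, ha0⟩ := toBS hH0 (ZV X (n + 7)).cmp (ZV X 6).cmp a ha
  obtain ⟨c, h, a', t1, t2, e⟩ := h2aux (cocE_off hX hH0 hH n) a0 ta
  simp only [LinearMap.zero_apply, smul_zero, add_zero] at e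
  refine ⟨ofBE (k := k) (ZV X (n + 7)).cmp (ZV X 6).cmp h t1, _,
    ofBS hH0 (ZP X (n + 6)).cmp (ZV X 6).cmp a' t2, fun y => (ha0 y).symm.trans ?_⟩
  exact e y

include hH hX in
theorem f_h2' (a : VM X 6 →ₗ[k] VM X 6) (ha : Semi (σE X.R hH0) a) :
    ∃ (c : k) (h : VM X 6 →ₗ[EE X.R] VM X 6) (a' : PM X 5 →ₗ[k] VM X 6),
      Semi (σE X.R hH0) a' ∧
      ∀ y, a y = sVM H 6 (h y) + h (sVM H 6 y) + a' (incM 5 y) + c • sVM H 6 y := by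
  obtain ⟨a0, ta, ha0⟩ := toBS hH0 (ZV X 6).cmp (ZV X 6).cmp a ha
  obtain ⟨c, h, a', t1, t2, e⟩ := h2aux (cocE_diag hX hH0 hH) a0 ta
  exact ⟨c, ofBE (k := k) (ZV X 6).cmp (ZV X 6).cmp h t1, _,
    ofBS hH0 (ZP X 5).cmp (ZV X 6).cmp a' t2, fun y => (ha0 y).symm.trans (e y)⟩

end

noncomputable def edata [CharP k 2] (H : k) (hH0 : H ≠ 0) (hH : ∀ n : ℕ, 1 + H ^ (n + 1) ≠ 0)
    (X : Pack k) (hX : X.BData) : (packE X).EData where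
  S := SE X.R
  σ := σE X.R hH0
  fix := by
    rintro _ ⟨b, rfl⟩
    exact TrivSqZeroExt.ext (σE_fst hH0 _) ((σE_snd hH0 _).trans (by simp))
  sP n := sPM H (n + 4)
  sY n := sVM H (n + 4)
  sP_semi n := ofBS hH0 (ZP X (n + 4)).cmp (ZP X (n + 4)).cmp _ (Tw_sP H _)
  sY_semi n := ofBS hH0 (ZV X (n + 4)).cmp (ZV X (n + 4)).cmp _ (Tw_sV H _)
  pr_s n := prE_s H (n + 4)
  inc_s n := incE_s H (n + 4)
  tr0 := f_tr0 hX
  hE := f_hE hX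
  hB := f_hB hX
  bproj n := f_bproj (n + 4)
  b1 := f_b1 hX
  b2 := f_b2 hX
  t1 := by
    have := trace_V hX 6 LinearMap.id
    rw [LinearMap.prodMap_id] at this
    exact this
  t2 := trace_V hX 6 (sT H 6)
  h1 := f_h1 hH0 hH hX
  h2 := f_h2 hH0 hH hX
  h2' := f_h2' hH0 hH hX

end E

theorem partE (k : Type) [Field k] [CharP k 2] (H : k) (hH0 : H ≠ 0)
    (hH : ∀ n : ℕ, 1 + H ^ (n + 1) ≠ 0) (X : Pack k) (hX : X.BData) :
    ∃ X' : Pack k, Nonempty X'.EData :=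
  ⟨E.packE X, ⟨E.edata H hH0 hH X hX⟩⟩

end Vale.Agent.P195
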