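import Vale.Agent.P195.L.Tri
import Vale.Agent.P195.L.Chase2

namespace Vale.Agent.P195

open Module LinearMap Function

variable {k : Type} [Field k]

namespace Ctx

variable {E : Type} [Ring E] [Algebra k E] (K : Ctx k E) [FiniteDimensional k E]
variable {N N' N'' : Type} [AddCommGroup N] [Module k N] [Module E N] [IsScalarTower k E N]
  [AddCommGroup N'] [Module k N'] [Module E N'] [IsScalarTower k E N']
  [AddCommGroup N''] [Module k N''] [Module E N''] [IsScalarTower k E N'']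

theorem amap_exact {f : N →ₗ[E] N'} {g : N' →ₗ[E] N''} (h : Exact f g) :
    Exact (K.amap f) (K.amap g) := h

theorem bmap_exact {f : N →ₗ[E] N'} {g : N' →ₗ[E] N''} (h : Exact f g)
    (h' : Exact (K.Fmap f) (K.Fmap g)) : Exact (K.bmap f) (K.bmap g) := by
  intro x
  constructor
  · intro hx
    obtain ⟨y, hy⟩ := (h x.y).1 (congrArg BM.y hx)
    obtain ⟨ξ, hξ⟩ := (h' x.f).1 (congrArg BM.f hx)
    exact ⟨K.toB ξ y, BM.ext K hξ hy⟩
  · rintro ⟨w, rfl⟩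
    exact BM.ext K (h'.apply_apply_eq_zero _) (h.apply_apply_eq_zero _)

theorem amap_inj {f g : N →ₗ[E] N'} (h : K.amap f = K.amap g) : f = g :=
  LinearMap.ext fun x => congrArg AM.v (LinearMap.congr_fun h (K.toA x))

theorem bmap_inj {f g : N →ₗ[E] N'} (h : K.bmap f = K.bmap g) : f = g :=
  LinearMap.ext fun x => congrArg BM.y (LinearMap.congr_fun h (K.toB 0 x))

theorem cmap_inj {f g : N →ₗ[E] K.F N'} (h : K.cmap f = K.cmap g) : f = g :=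
  LinearMap.ext fun x => congrArg BM.f (LinearMap.congr_fun h (K.toA x))

theorem amap_comp (f : N →ₗ[E] N') (g : N' →ₗ[E] N'') :
    K.amap g ∘ₗ K.amap f = K.amap (g ∘ₗ f) := rfl

theorem bmap_comp (f : N →ₗ[E] N') (g : N' →ₗ[E] N'') :
    K.bmap g ∘ₗ K.bmap f = K.bmap (g ∘ₗ f) :=
  LinearMap.ext fun x => BM.ext K (K.Fmap_comp f g x.f).symm rfl

theorem cmap_amap (f : N →ₗ[E] N') (c : N' →ₗ[E] K.F N'') :
    K.cmap c ∘ₗ K.amap f = K.cmap (c ∘ₗ f) := rfl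

theorem bmap_cmap (c : N →ₗ[E] K.F N') (g : N' →ₗ[E] N'') :
    K.bmap g ∘ₗ K.cmap c = K.cmap (K.Fmap g ∘ₗ c) :=
  LinearMap.ext fun _ => BM.ext K rfl (map_zero g)

theorem cmap_add (c c' : N →ₗ[E] K.F N') : K.cmap c + K.cmap c' = K.cmap (c + c') :=
  LinearMap.ext fun _ => BM.ext K rfl (add_zero _)

theorem amap_zero : K.amap (0 : N →ₗ[E] N') = 0 := rfl

theorem bmap_zero : K.bmap (0 : N →ₗ[E] N') = 0 :=
  LinearMap.ext fun x => BM.ext K (K.Fmap_zero x.f) rfl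

theorem cmap_zero : K.cmap (0 : N →ₗ[E] K.F N') = 0 := rfl

end Ctx

namespace Pack.EData

variable {X : Pack k} (D : X.EData)

theorem F_exact_inc (n : ℕ) : Exact (D.ctx.Fmap (X.inc n)) (D.ctx.Fmap (X.pr n)) :=
  D.ctx.Fmap_exact _ (X.inc_inj n) _ (X.pr_surj n) (X.exact n) (D.hB n)

theorem F_pr_surj (n : ℕ) : Surjective (D.ctx.Fmap (X.pr n)) :=
  D.ctx.Fmap_surj _ _ (X.pr_surj n) (X.exact n)

theorem F_exact_d0 (n : ℕ) : Exact (D.ctx.Fmap (X.d n)) (D.ctx.Fmap (X.pr n)) := by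
  intro x
  rw [D.F_exact_inc n x]
  constructor
  · rintro ⟨y, rfl⟩
    obtain ⟨z, rfl⟩ := D.F_pr_surj _ y
    exact ⟨z, D.ctx.Fmap_comp _ _ _⟩
  · rintro ⟨z, rfl⟩
    exact ⟨_, (D.ctx.Fmap_comp _ _ _).symm⟩

theorem F_exact_d (n : ℕ) : Exact (D.ctx.Fmap (X.d (n + 1))) (D.ctx.Fmap (X.d n)) := by
  intro x
  rw [← D.F_exact_d0 (n + 1) x, Pack.d, Ctx.Fmap_comp,
    map_eq_zero_iff _ (D.ctx.Fmap_inj _ (X.inc_inj n))]

variable {D} [CharP k 2] (G : D.GData)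

/-- The cone data. -/
def GData.cone : ConeData D.ctx.Lam (fun n => D.ctx.AM (X.P n)) (fun n => D.ctx.BM (X.P (n + 2)))
    (D.ctx.AM (X.Y 0)) (D.ctx.BM (X.Y 2)) where
  dA n := D.ctx.amap (X.d n)
  dB n := D.ctx.bmap (X.d (n + 2))
  εA := D.ctx.amap (X.pr 0)
  εB := D.ctx.bmap (X.pr 2)
  g n := D.ctx.cmap (G.g n)
  εA_surj := X.pr_surj 0
  εB_surj := fun x => by
    obtain ⟨y, hy⟩ := X.pr_surj 2 x.y
    obtain ⟨ξ, hξ⟩ := D.F_pr_surj 2 x.f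
    exact ⟨D.ctx.toB ξ y, Ctx.BM.ext _ hξ hy⟩
  A0 := D.ctx.amap_exact (X.exact_d0 0)
  B0 := D.ctx.bmap_exact (X.exact_d0 2) (D.F_exact_d0 2)
  An n := D.ctx.amap_exact (X.exact_d n)
  Bn n := D.ctx.bmap_exact (X.exact_d (n + 2)) (D.F_exact_d (n + 2))
  hg n x := Ctx.BM.ext _ (G.hg n x.v) (by simp)

theorem GData.cone_g' : G.cone.g' = D.ctx.cmap (D.ctx.Fmap (X.pr 2) ∘ₗ G.g 0) :=
  D.ctx.bmap_cmap _ _

theorem GData.vanM (n : ℕ)
    (c : D.ctx.AM (X.P (n + 1)) × D.ctx.BM (X.P (n + 1 + 2)) →ₗ[D.ctx.Lam] G.cone.M)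
    (hc : c ∘ₗ G.cone.d (n + 1) = 0) :
    ∃ b : D.ctx.AM (X.P n) × D.ctx.BM (X.P (n + 2)) →ₗ[D.ctx.Lam] G.cone.M,
      c = b ∘ₗ G.cone.d n := by
  haveI : ∀ n, Module.Projective D.ctx.Lam (D.ctx.AM (X.P n)) := fun n => D.ctx.AM_proj.1
  refine G.cone.van_self (fun n f => D.ctx.hom_BA f) ?_ ?_ n c hc
  · intro n c0 c1 h c' h1 h2 h3
    obtain ⟨c0, rfl⟩ := D.ctx.exists_amap c0
    obtain ⟨c1, rfl⟩ := D.ctx.exists_amap c1
    obtain ⟨h, rfl⟩ := D.ctx.exists_bmap h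
    obtain ⟨c', rfl⟩ := D.ctx.exists_cmap c'
    rw [GData.cone_g'] at h3
    obtain ⟨⟨h', hh'⟩, s, hs⟩ := G.inj n c0 c1 h c' (D.ctx.amap_inj h1)
      (D.ctx.bmap_inj (by rw [← Ctx.bmap_comp, Ctx.bmap_zero]; exact h2))
      (D.ctx.cmap_inj (by
        rw [← Ctx.cmap_add, ← Ctx.cmap_amap, ← Ctx.cmap_amap, ← Ctx.bmap_cmap _ (G.g (n + 1))]
        exact h3))
    refine ⟨⟨D.ctx.bmap h', ?_⟩, D.ctx.amap s, ?_⟩
    · rw [hh', ← Ctx.bmap_comp]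
      rfl
    · exact congrArg D.ctx.amap hs
  · intro n b hb
    obtain ⟨b, rfl⟩ := D.ctx.exists_cmap b
    obtain ⟨c0, c1, h, c', h1, h2, h3⟩ := G.surj n b (D.ctx.cmap_inj hb)
    refine ⟨D.ctx.amap c0, D.ctx.amap c1, D.ctx.bmap h, D.ctx.cmap c', congrArg D.ctx.amap h1,
      ?_, ?_⟩
    · have := congrArg D.ctx.bmap h2
      rw [← Ctx.bmap_comp, Ctx.bmap_zero] at this
      exact this
    · have := congrArg D.ctx.cmap h3
      rw [← Ctx.cmap_add, ← Ctx.cmap_add, ← Ctx.cmap_amap, ← Ctx.cmap_amap,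
        ← Ctx.bmap_cmap _ (G.g n)] at this
      rw [GData.cone_g']
      exact this

theorem GData.vanL (n : ℕ)
    (c : D.ctx.AM (X.P (n + 1)) × D.ctx.BM (X.P (n + 1 + 2)) →ₗ[D.ctx.Lam] D.ctx.Lam)
    (hc : c ∘ₗ G.cone.d (n + 1) = 0) :
    ∃ b : D.ctx.AM (X.P n) × D.ctx.BM (X.P (n + 2)) →ₗ[D.ctx.Lam] D.ctx.Lam,
      c = b ∘ₗ G.cone.d n := by
  obtain ⟨b₁, hb₁⟩ := G.cone.van_of_van (T := D.ctx.AM X.R) (fun n c hc => by
      obtain ⟨c, rfl⟩ := D.ctx.exists_amap c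
      obtain ⟨g, hg⟩ := D.vanP n c (Pack.comp_inc_of_comp_d (D.ctx.amap_inj hc))
      exact ⟨D.ctx.amap g, congrArg D.ctx.amap (LinearMap.ext hg : c = g ∘ₗ X.d n)⟩)
    (fun n c _ => ⟨0, D.ctx.hom_BA c⟩) n (D.ctx.pA ∘ₗ c)
    (by rw [LinearMap.comp_assoc, hc, LinearMap.comp_zero])
  obtain ⟨b₂, hb₂⟩ := G.cone.van_of_van (T := D.ctx.BM X.R) (fun n c hc => by
      obtain ⟨c, rfl⟩ := D.ctx.exists_cmap c
      obtain ⟨g, hg⟩ := D.vanF n c (D.ctx.cmap_inj hc)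
      exact ⟨D.ctx.cmap g, congrArg D.ctx.cmap hg⟩)
    (fun n c hc => by
      obtain ⟨c, rfl⟩ := D.ctx.exists_bmap c
      obtain ⟨g, hg⟩ := D.vanP (n + 2) c (Pack.comp_inc_of_comp_d
        (D.ctx.bmap_inj (by rw [← Ctx.bmap_comp, Ctx.bmap_zero]; exact hc)))
      refine ⟨D.ctx.bmap g, ?_⟩
      have : c = g ∘ₗ X.d (n + 2) := LinearMap.ext hg
      rw [this, ← Ctx.bmap_comp]
      rfl) n (D.ctx.pB ∘ₗ c)
    (by rw [LinearMap.comp_assoc, hc, LinearMap.comp_zero])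
  refine ⟨D.ctx.iA ∘ₗ b₁ + D.ctx.iB ∘ₗ b₂, LinearMap.ext fun x => ?_⟩
  have e1 : D.ctx.pA (c x) = b₁ (G.cone.d n x) := LinearMap.congr_fun hb₁ x
  have e2 : D.ctx.pB (c x) = b₂ (G.cone.d n x) := LinearMap.congr_fun hb₂ x
  simp only [LinearMap.comp_apply, LinearMap.add_apply, ← e1, ← e2, Ctx.iA_pA_add]

theorem GData.not_proj : ¬ Module.Projective D.ctx.Lam G.cone.M := by
  intro hp
  obtain ⟨s, hs⟩ := G.cone.section_of_projective (fun f => D.ctx.hom_BA f)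
  have h1 : ∀ y, X.pr 2 (D.ctx.sndMap s y) = y := fun y => congrArg Ctx.BM.y (hs (D.ctx.toB 0 y))
  have h2 : (LinearMap.id : X.Y 2 →ₗ[k] X.Y 2) =
      (X.pr 2).restrictScalars k ∘ₗ (D.ctx.sndMap s).restrictScalars k := by
    ext y
    exact (h1 y).symm
  have h3 := D.t1
  rw [h2, trace_comp_comm', D.ctx.trace_blin _ ((BLin.of_lin _).comp (BLin.of_lin _))] at h3
  exact zero_ne_one h3

end Pack.EData

theorem partL (k : Type) [Field k] [CharP k 2] (X : Pack k) (D : X.EData) :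
    Nonempty (Cex k) := by
  obtain ⟨G⟩ := D.exists_gdata
  haveI : ∀ n, Module.Projective D.ctx.Lam (D.ctx.AM (X.P n)) := fun n => D.ctx.AM_proj.1
  haveI : ∀ n, Module.Projective D.ctx.Lam (D.ctx.BM (X.P n)) := fun n => D.ctx.BM_proj.1
  haveI : ∀ n, Module.Finite D.ctx.Lam (D.ctx.AM (X.P n)) := fun n => D.ctx.AM_proj.2
  haveI : ∀ n, Module.Finite D.ctx.Lam (D.ctx.BM (X.P n)) := fun n => D.ctx.BM_proj.2
  exact ⟨{
    L := D.ctx.Lam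
    Z := fun n => D.ctx.AM (X.P n) × D.ctx.BM (X.P (n + 2))
    M := G.cone.M
    d := G.cone.d
    ε := G.cone.ε
    ε_surj := G.cone.ε_surj
    exact0 := G.cone.exact0
    exact := G.cone.exactn
    vanM := G.vanM
    vanL := G.vanL
    not_proj := G.not_proj }⟩

end Vale.Agent.P195
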