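import Vale.Agent.P195.PartB
import Vale.Agent.P195.PartE
import Vale.Agent.P195.PartL
import Vale.Agent.P195.ExtLink

namespace Vale.Agent.P195

open CategoryTheory Abelian

theorem exists_cex : Nonempty (Cex (RatFunc (ZMod 2))) := by
  have hq0 : (RatFunc.X : RatFunc (ZMod 2)) ≠ 0 := RatFunc.X_ne_zero
  have hq : ∀ n : ℕ, 1 + (RatFunc.X : RatFunc (ZMod 2)) ^ (n + 1) ≠ 0 := by
    intro n h
    have h1 : (algebraMap (Polynomial (ZMod 2)) (RatFunc (ZMod 2)))
        (1 + Polynomial.X ^ (n + 1)) = 0 := by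
      simpa [RatFunc.algebraMap_X] using h
    have h2 : (1 + Polynomial.X ^ (n + 1) : Polynomial (ZMod 2)) = 0 :=
      (IsFractionRing.injective (Polynomial (ZMod 2)) (RatFunc (ZMod 2))) (by simpa using h1)
    have h3 := congrArg (fun p => Polynomial.coeff p 0) h2
    simp at h3
  have : CharP (RatFunc (ZMod 2)) 2 :=
    charP_of_injective_algebraMap (algebraMap (ZMod 2) (RatFunc (ZMod 2))).injective 2
  obtain ⟨X, hX⟩ := partB _ _ hq0 hq
  obtain ⟨X', ⟨D⟩⟩ := partE _ _ hq0 hq X hX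
  exact partL _ X' D

theorem Cex.van_prod {k : Type} [Field k] (c : Cex k) (n : ℕ) (f : c.Z (n + 1) →ₗ[c.L] c.M × c.L)
    (hf : f ∘ₗ c.d (n + 1) = 0) : ∃ b : c.Z n →ₗ[c.L] c.M × c.L, f = b ∘ₗ c.d n := by
  obtain ⟨b₁, h₁⟩ := c.vanM n (LinearMap.fst _ _ _ ∘ₗ f)
    (by rw [LinearMap.comp_assoc, hf, LinearMap.comp_zero])
  obtain ⟨b₂, h₂⟩ := c.vanL n (LinearMap.snd _ _ _ ∘ₗ f)
    (by rw [LinearMap.comp_assoc, hf, LinearMap.comp_zero])
  refine ⟨LinearMap.prod b₁ b₂, LinearMap.ext fun x => Prod.ext ?_ ?_⟩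
  · exact LinearMap.congr_fun h₁ x
  · exact LinearMap.congr_fun h₂ x

theorem counterexample :
    ∃ (k : Type) (_ : Field k) (R : Type) (_ : Ring R) (_ : Algebra k R),
      FiniteDimensional k R ∧
      ∃ (M : Type) (_ : AddCommGroup M) (_ : Module R M), Module.Finite R M ∧
        (∀ i : ℕ, 1 ≤ i →
          Subsingleton (Ext (ModuleCat.of R M) (ModuleCat.of R (M × R)) i) ∧
          Subsingleton (Ext (ModuleCat.of R M) (ModuleCat.of R M) i) ∧
          Subsingleton (Ext (ModuleCat.of R M) (ModuleCat.of R R) i)) ∧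
        ¬ Module.Projective R M := by
  obtain ⟨c⟩ := exists_cex
  refine ⟨RatFunc (ZMod 2), inferInstance, c.L, inferInstance, inferInstance, inferInstance, c.M, inferInstance,
    inferInstance, Module.Finite.of_surjective c.ε c.ε_surj, fun i hi => ?_, c.not_proj⟩
  obtain ⟨i, rfl⟩ := Nat.exists_eq_add_of_le' hi
  exact ⟨ext_subsingleton_of_complex c.Z c.M _ c.d c.ε c.ε_surj c.exact0 c.exact c.van_prod i,
    ext_subsingleton_of_complex c.Z c.M _ c.d c.ε c.ε_surj c.exact0 c.exact c.vanM i,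
    ext_subsingleton_of_complex c.Z c.M _ c.d c.ε c.ε_surj c.exact0 c.exact c.vanL i⟩

end Vale.Agent.P195
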