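import Vale.Agent.P195.B.Res

namespace Vale.Agent.P195

theorem partB (k : Type) [Field k] [CharP k 2] (q : k) (hq0 : q ≠ 0)
    (hq : ∀ n : ℕ, 1 + q ^ (n + 1) ≠ 0) : ∃ X : Pack k, X.BData :=
  ⟨B.pack q hq0 hq, B.bdata q hq0 hq⟩

end Vale.Agent.P195
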